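import Vale.Agent.H64.Quillen.Main

/-!
# Quillen's poset `A_p(G)` for groups with `O_p(G) = 1`: two elementary statements

`Ap p G` is the set of nonidentity elementary abelian `p`-subgroups of `G` with the inclusion
order.  The hypothesis `O_p(G) = 1` is written out: every normal `p`-subgroup of `G` is trivial.

1. For every such finite group, `A_p(G)` is not contractible through poset maps: no finite
   chain of order preserving self-maps, consecutive ones comparable pointwise, joins the identity
   to a constant map.  (Such chains are the homotopies of finite spaces; dismantlings and conical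
   contractions are of this kind.)
2. If moreover `p` divides `|G|` and distinct Sylow `p`-subgroups intersect trivially, then
   `A_p(G)` is disconnected.
-/

namespace Vale.Agent.Results.P240.A_NoPosetContraction

open Vale.Agent.H64.Quillen

theorem result : ∀ (G : Type) [Group G] [Finite G] (p : ℕ) [Fact p.Prime],
    (∀ N : Subgroup G, N.Normal → IsPGroup p N → N = ⊥) →
    (¬ ∃ c : Ap p G, Relation.ReflTransGen
        (fun f g : Ap p G →o Ap p G => f ≤ g ∨ g ≤ f) OrderHom.id (OrderHom.const _ c)) ∧
    (p ∣ Nat.card G →
      (∀ P Q : Sylow p G, P ≠ Q → (P : Subgroup G) ⊓ (Q : Subgroup G) = ⊥) →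
      ∃ E F : Ap p G, ¬ Relation.EqvGen (fun a b : Ap p G => a ≤ b) E F) :=
  fun _ _ _ p _ hOp =>
    ⟨not_fence_contractible p hOp, fun hdvd hTI => ti_disconnected p hOp hdvd hTI⟩

end Vale.Agent.Results.P240.A_NoPosetContraction
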